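import Mathlib

/-!
An upper bound for the area of a planar set in terms of its middle section
(Hermite-Hadamard type inequality), and the integral of the tent function.
-/

namespace Vale.Agent.Lib.P243

open MeasureTheory Set

theorem line_pair {I J : Set ℝ} (hI : I.Nonempty) (hJ : J.Nonempty) (lo hi : ℝ)
    (h : ∀ y ∈ I, ∀ y' ∈ J, 2 * lo ≤ y + y' ∧ y + y' ≤ 2 * hi) :
    volume I + volume J ≤ ENNReal.ofReal (2 * (hi - lo)) := by
  obtain ⟨y0, hy0⟩ := hI
  obtain ⟨z0, hz0⟩ := hJ
  have hbb : BddBelow J := ⟨2 * lo - y0, fun y' hy' => by have := (h y0 hy0 y' hy').1; linarith⟩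
  have hba : BddAbove J := ⟨2 * hi - y0, fun y' hy' => by have := (h y0 hy0 y' hy').2; linarith⟩
  set j0 := sInf J
  set j1 := sSup J
  have hJsub : J ⊆ Icc j0 j1 := fun y' hy' => ⟨csInf_le hbb hy', le_csSup hba hy'⟩
  have hIsub : I ⊆ Icc (2 * lo - j0) (2 * hi - j1) := by
    intro y hy
    constructor
    · have : 2 * lo - y ≤ j0 := le_csInf ⟨z0, hz0⟩ (fun y' hy' => by
        have := (h y hy y' hy').1; linarith)
      linarith
    · have : j1 ≤ 2 * hi - y := csSup_le ⟨z0, hz0⟩ (fun y' hy' => by
        have := (h y hy y' hy').2; linarith)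
      linarith
  have h1 : volume I ≤ ENNReal.ofReal (2 * hi - j1 - (2 * lo - j0)) := by
    refine le_trans (measure_mono hIsub) ?_
    rw [Real.volume_Icc]
  have h2 : volume J ≤ ENNReal.ofReal (j1 - j0) := by
    refine le_trans (measure_mono hJsub) ?_
    rw [Real.volume_Icc]
  have n2 : 0 ≤ j1 - j0 := by
    have := hJsub hz0
    linarith [this.1, this.2]
  have n1 : 0 ≤ 2 * hi - j1 - (2 * lo - j0) := by
    have := hIsub hy0
    linarith [this.1, this.2]
  calc volume I + volume J ≤ ENNReal.ofReal (2 * hi - j1 - (2 * lo - j0)) + ENNReal.ofReal (j1 - j0) :=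
        add_le_add h1 h2
    _ = ENNReal.ofReal (2 * hi - j1 - (2 * lo - j0) + (j1 - j0)) := (ENNReal.ofReal_add n1 n2).symm
    _ = ENNReal.ofReal (2 * (hi - lo)) := by congr 1; ring

theorem hh_bound (P : Set (ℝ × ℝ)) (hP : MeasurableSet P) (tm hh lo hi : ℝ)
    (h1 : ∀ p ∈ P, |p.1 - tm| ≤ hh)
    (h2 : ∀ s y y', (tm + s, y) ∈ P → (tm - s, y') ∈ P → 2 * lo ≤ y + y' ∧ y + y' ≤ 2 * hi)
    (h3 : ∀ s y, (tm + s, y) ∈ P → ∃ y', (tm - s, y') ∈ P) :
    volume P ≤ ENNReal.ofReal (2 * hh) * ENNReal.ofReal (hi - lo) := by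
  set g : ℝ → ENNReal := fun t => volume (Prod.mk t ⁻¹' P) with hg
  have hgm : Measurable g := measurable_measure_prodMk_left hP
  have hvol : volume P = ∫⁻ t, g t := by
    rw [Measure.volume_eq_prod, Measure.prod_apply hP]
  have e1 : ∫⁻ s, g (tm + s) = ∫⁻ t, g t := lintegral_add_left_eq_self g tm
  have e2 : ∫⁻ s, g (tm - s) = ∫⁻ t, g t := lintegral_sub_left_eq_self g tm
  have hsum : ∫⁻ s, (g (tm + s) + g (tm - s)) = 2 * volume P := by
    have hm : Measurable (fun s => g (tm + s)) := hgm.comp (measurable_const.add measurable_id)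
    rw [lintegral_add_left hm, e1, e2, hvol, two_mul]
  have hpt : ∀ s, g (tm + s) + g (tm - s) ≤
      (Icc (-hh) hh).indicator (fun _ => ENNReal.ofReal (2 * (hi - lo))) s := by
    intro s
    by_cases hI : (Prod.mk (tm + s) ⁻¹' P).Nonempty
    · obtain ⟨y, hy⟩ := hI
      have hy' : (tm + s, y) ∈ P := hy
      have hs : |s| ≤ hh := by
        have := h1 _ hy'
        simpa using this
      have hsmem : s ∈ Icc (-hh) hh := abs_le.mp hs
      rw [indicator_of_mem hsmem]
      obtain ⟨z, hz⟩ := h3 s y hy'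
      exact line_pair ⟨y, hy⟩ ⟨z, hz⟩ lo hi (fun a ha b hb => h2 s a b ha hb)
    · have hIe : Prod.mk (tm + s) ⁻¹' P = ∅ := not_nonempty_iff_eq_empty.mp hI
      have hJe : Prod.mk (tm - s) ⁻¹' P = ∅ := by
        by_contra hne
        obtain ⟨z, hz⟩ := nonempty_iff_ne_empty.mpr hne
        have hz' : (tm + (-s), z) ∈ P := by
          have : tm + (-s) = tm - s := by ring
          rw [this]; exact hz
        obtain ⟨y, hy⟩ := h3 (-s) z hz'
        have : tm - (-s) = tm + s := by ring
        rw [this] at hy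
        exact hI ⟨y, hy⟩
      simp only [hg, hIe, hJe, measure_empty, add_zero]
      exact bot_le
  have hle : 2 * volume P ≤ ENNReal.ofReal (2 * (hi - lo)) * ENNReal.ofReal (2 * hh) := by
    rw [← hsum]
    refine le_trans (lintegral_mono hpt) ?_
    rw [lintegral_indicator measurableSet_Icc, lintegral_const, Measure.restrict_apply MeasurableSet.univ,
      univ_inter, Real.volume_Icc]
    have : hh - -hh = 2 * hh := by ring
    rw [this]
  have h2' : ENNReal.ofReal (2 * (hi - lo)) = 2 * ENNReal.ofReal (hi - lo) := by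
    rw [ENNReal.ofReal_mul (by norm_num)]; simp
  rw [h2', mul_assoc] at hle
  have := (ENNReal.mul_le_mul_iff_right (by norm_num) (by norm_num)).mp hle
  rw [mul_comm] at this
  exact this

theorem tent_integral (c hh : ℝ) (hc : 0 ≤ c) (hhh : 0 < hh) :
    ENNReal.ofReal (c * hh) ≤ ∫⁻ s : ℝ, ENNReal.ofReal (c * (1 - |s| / hh)) := by
  have hcont : Continuous (fun s : ℝ => c * (1 - |s| / hh)) := by fun_prop
  have hint : ∫ s in (-hh)..hh, c * (1 - |s| / hh) = c * hh := by
    have i1 : IntervalIntegrable (fun s : ℝ => c * (1 - |s| / hh)) volume (-hh) 0 :=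
      hcont.intervalIntegrable _ _
    have i2 : IntervalIntegrable (fun s : ℝ => c * (1 - |s| / hh)) volume 0 hh :=
      hcont.intervalIntegrable _ _
    rw [← intervalIntegral.integral_add_adjacent_intervals i1 i2]
    have a1 : ∫ s in (-hh)..0, c * (1 - |s| / hh) = ∫ s in (-hh)..0, (c + (c / hh) * s) := by
      refine intervalIntegral.integral_congr (fun s hs => ?_)
      rw [uIcc_of_le (by linarith)] at hs
      rw [abs_of_nonpos hs.2]
      field_simp
      ring
    have a2 : ∫ s in (0 : ℝ)..hh, c * (1 - |s| / hh) = ∫ s in (0 : ℝ)..hh, (c - (c / hh) * s) := by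
      refine intervalIntegral.integral_congr (fun s hs => ?_)
      rw [uIcc_of_le (by linarith)] at hs
      rw [abs_of_nonneg hs.1]
      field_simp
    rw [a1, a2]
    rw [intervalIntegral.integral_add (by simp) (by
        exact (continuous_const.mul continuous_id).intervalIntegrable _ _),
      intervalIntegral.integral_sub (by simp) (by
        exact (continuous_const.mul continuous_id).intervalIntegrable _ _)]
    rw [intervalIntegral.integral_const_mul, intervalIntegral.integral_const_mul, integral_id,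
      integral_id]
    simp only [intervalIntegral.integral_const, smul_eq_mul]
    field_simp
    ring
  calc ENNReal.ofReal (c * hh) = ENNReal.ofReal (∫ s in Ioc (-hh) hh, c * (1 - |s| / hh)) := by
        rw [← hint, intervalIntegral.integral_of_le (by linarith)]
    _ = ∫⁻ s in Ioc (-hh) hh, ENNReal.ofReal (c * (1 - |s| / hh)) := by
        refine ofReal_integral_eq_lintegral_ofReal ?_ ?_
        · exact (hcont.integrableOn_Icc).mono_set Ioc_subset_Icc_self
        · rw [Filter.EventuallyLE, ae_restrict_iff' measurableSet_Ioc]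
          refine Filter.Eventually.of_forall (fun s hs => ?_)
          have : |s| ≤ hh := abs_le.mpr ⟨hs.1.le, hs.2⟩
          have : |s| / hh ≤ 1 := (div_le_one hhh).mpr this
          exact mul_nonneg hc (by linarith)
    _ ≤ ∫⁻ s : ℝ, ENNReal.ofReal (c * (1 - |s| / hh)) := setLIntegral_le_lintegral _ _

end Vale.Agent.Lib.P243
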