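import Mathlib

/-!
The arithmetic core of the planar two-direction covering lemma.
-/

namespace Vale.Agent.Lib.P243

theorem arith_I (t0 t1 l1 r1 w η A' C C' : ℝ) (hl1 : 0 ≤ l1) (hr1 : 0 ≤ r1) (ht : t0 + t1 = w)
    (e1 : η * (t0 * l1) ≤ A' * l1 - C * t0)
    (e2 : η * (t1 * r1) ≤ -A' * r1 - C' * t1) :
    η * (l1 * r1 * w) ≤ -C * (t0 * r1) - C' * (t1 * l1) := by
  have h1 := mul_le_mul_of_nonneg_right e1 hr1
  have h2 := mul_le_mul_of_nonneg_right e2 hl1
  have : η * (l1 * r1 * w) = η * (t0 * l1) * r1 + η * (t1 * r1) * l1 := by rw [← ht]; ring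
  linarith

theorem arith_II (b0 b1 l0 r0 w η A C C' : ℝ) (hl0 : 0 ≤ l0) (hr0 : 0 ≤ r0) (hb : b0 + b1 = w)
    (e3 : η * (b1 * r0) ≤ -A * r0 + C' * b1)
    (e4 : η * (b0 * l0) ≤ A * l0 + C * b0) :
    η * (l0 * r0 * w) ≤ C' * (b1 * l0) + C * (b0 * r0) := by
  have h1 := mul_le_mul_of_nonneg_right e3 hl0
  have h2 := mul_le_mul_of_nonneg_right e4 hr0
  have : η * (l0 * r0 * w) = η * (b1 * r0) * l0 + η * (b0 * l0) * r0 := by rw [← hb]; ring
  linarith

theorem arith_IIIa (b0 t0 t1 l0 r1 w η A A' C C' : ℝ) (hl0 : 0 ≤ l0) (hr1 : 0 ≤ r1)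
    (ht : t0 + t1 = w)
    (e2 : η * (t1 * r1) ≤ -A' * r1 - C' * t1)
    (e4 : η * (b0 * l0) ≤ A * l0 + C * b0)
    (h6 : η * (t0 - b0) ≤ A' - A) :
    η * (l0 * r1 * w) ≤ C * (b0 * r1) - C' * (t1 * l0) := by
  have g2 := mul_le_mul_of_nonneg_right e2 hl0
  have g4 := mul_le_mul_of_nonneg_right e4 hr1
  have g6 := mul_le_mul_of_nonneg_right h6 (mul_nonneg hl0 hr1)
  have : η * (l0 * r1 * w) = η * (t1 * r1) * l0 + η * (b0 * l0) * r1
      + η * (t0 - b0) * (l0 * r1) := by rw [← ht]; ring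
  linarith

theorem arith_IIIb (b0 b1 t0 l1 r0 w η A A' C C' : ℝ) (hl1 : 0 ≤ l1) (hr0 : 0 ≤ r0)
    (hb : b0 + b1 = w)
    (e1 : η * (t0 * l1) ≤ A' * l1 - C * t0)
    (e3 : η * (b1 * r0) ≤ -A * r0 + C' * b1)
    (h6 : η * (b0 - t0) ≤ A - A') :
    η * (r0 * l1 * w) ≤ C' * (b1 * l1) - C * (t0 * r0) := by
  have g1 := mul_le_mul_of_nonneg_right e1 hr0
  have g3 := mul_le_mul_of_nonneg_right e3 hl1
  have g6 := mul_le_mul_of_nonneg_right h6 (mul_nonneg hr0 hl1)
  have : η * (r0 * l1 * w) = η * (t0 * l1) * r0 + η * (b1 * r0) * l1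
      + η * (b0 - t0) * (r0 * l1) := by rw [← hb]; ring
  linarith

/-- Cross-multiplication contradiction: `p x1 < q y1`, `q y2 < p x2`, `y1 y2 ≤ x1 x2`... -/
theorem arith_cross (p q x1 x2 y1 y2 : ℝ) (hp : 0 < p) (hq : 0 < q)
    (hx1 : 0 ≤ x1) (hy2 : 0 ≤ y2)
    (J1 : p * x1 < q * y1) (J2 : q * y2 < p * x2) (m : y1 * x2 ≤ x1 * y2) : False := by
  have K1 : 0 ≤ p * x1 := mul_nonneg hp.le hx1
  have K2 : 0 ≤ q * y2 := mul_nonneg hq.le hy2
  have prod : (p * x1) * (q * y2) < (q * y1) * (p * x2) := mul_lt_mul'' J1 J2 K1 K2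
  have hpq : 0 < p * q := mul_pos hp hq
  have := mul_le_mul_of_nonneg_left m hpq.le
  have e1 : (p * x1) * (q * y2) = p * q * (x1 * y2) := by ring
  have e2 : (q * y1) * (p * x2) = p * q * (y1 * x2) := by ring
  linarith

/-- The branch `l0 ≤ r0`. -/
theorem arith_branch (b0 b1 t0 t1 l0 l1 r0 r1 w h η C C' : ℝ)
    (hb0 : 0 ≤ b0) (hb1 : 0 ≤ b1) (ht0 : 0 ≤ t0) (ht1 : 0 ≤ t1)
    (hl0 : 0 ≤ l0) (hl1 : 0 ≤ l1) (hr0 : 0 ≤ r0) (hr1 : 0 ≤ r1)
    (hb : b0 + b1 = w) (ht : t0 + t1 = w) (hl : l0 + l1 = h) (hr : r0 + r1 = h)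
    (hw : 0 < w) (hh : 0 < h) (hη : 0 < η)
    (I : η * (l1 * r1 * w) ≤ -C * (t0 * r1) - C' * (t1 * l1))
    (II : η * (l0 * r0 * w) ≤ C' * (b1 * l0) + C * (b0 * r0))
    (hlr : l0 ≤ r0) (h5 : η * (r0 - l0) ≤ C' - C)
    (III : b0 ≤ t0 → η * (l0 * r1 * w) ≤ C * (b0 * r1) - C' * (t1 * l0))
    (cL0 : l0 = 0 → C = 0) (cR1 : r1 = 0 → C' = 0) : False := by
  have h5' : C ≤ C' := by
    have := mul_nonneg hη.le (sub_nonneg.mpr hlr)
    linarith
  have hl1r1 : r1 ≤ l1 := by linarith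
  rcases eq_or_lt_of_le hl0 with hl00 | hl0pos
  · -- l0 = 0
    have hC : C = 0 := cL0 hl00.symm
    have hl1h : l1 = h := by linarith
    rcases eq_or_lt_of_le hr1 with hr10 | hr1pos
    · have hC' : C' = 0 := cR1 hr10.symm
      have hr0h : r0 = h := by linarith
      rw [hC, hC', hr0h, ← hl00] at h5
      have := mul_pos hη hh
      linarith
    · have hpos : 0 < η * (l1 * r1 * w) := by rw [hl1h]; positivity
      have hC'0 : 0 ≤ C' := by rw [hC] at h5'; exact h5'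
      rw [hC] at I
      have := mul_nonneg hC'0 (mul_nonneg ht1 hl1)
      linarith
  · rcases eq_or_lt_of_le hr1 with hr10 | hr1pos
    · -- r1 = 0
      have hC' : C' = 0 := cR1 hr10.symm
      have hr0h : r0 = h := by linarith
      have hC0 : C ≤ 0 := by rw [hC'] at h5'; exact h5'
      have hpos : 0 < η * (l0 * r0 * w) := by rw [hr0h]; positivity
      rw [hC'] at II
      have := mul_nonneg (neg_nonneg.mpr hC0) (mul_nonneg hb0 hr0)
      linarith
    · -- generic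
      have hr0pos : 0 < r0 := lt_of_lt_of_le hl0pos hlr
      have hl1pos : 0 < l1 := lt_of_lt_of_le hr1pos hl1r1
      have hposI : 0 < η * (l1 * r1 * w) := by positivity
      have hposII : 0 < η * (l0 * r0 * w) := by positivity
      have hCneg : C < 0 := by
        by_contra hC
        have hC : 0 ≤ C := not_lt.mp hC
        have hC' : 0 ≤ C' := le_trans hC h5'
        have n1 := mul_nonneg hC (mul_nonneg ht0 hr1)
        have n2 := mul_nonneg hC' (mul_nonneg ht1 hl1)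
        linarith
      have hC'pos : 0 < C' := by
        by_contra hC'
        have hC' : C' ≤ 0 := not_lt.mp hC'
        have n1 := mul_nonneg (neg_nonneg.mpr hC') (mul_nonneg hb1 hl0)
        have n2 := mul_nonneg (neg_nonneg.mpr hCneg.le) (mul_nonneg hb0 hr0)
        linarith
      rcases le_total b0 t0 with hbt | hbt
      · -- case A
        have III' := III hbt
        have hposIII : 0 < η * (l0 * r1 * w) := by positivity
        have n1 := mul_nonneg (neg_nonneg.mpr hCneg.le) (mul_nonneg hb0 hr1)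
        have n2 := mul_nonneg hC'pos.le (mul_nonneg ht1 hl0)
        linarith
      · -- case B'
        have hb1t1 : b1 ≤ t1 := by linarith
        have hc : 0 < -C := neg_pos.mpr hCneg
        have J1 : C' * (t1 * l1) < (-C) * (t0 * r1) := by linarith
        have J2 : (-C) * (b0 * r0) < C' * (b1 * l0) := by linarith
        have m1 : b1 * t0 ≤ b0 * t1 := by
          have a1 := mul_le_mul hb1t1 hbt ht0 ht1
          linarith
        have m2 : l0 * r1 ≤ r0 * l1 := mul_le_mul hlr hl1r1 hr1 hr0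
        have m3 : (t0 * r1) * (b1 * l0) ≤ (t1 * l1) * (b0 * r0) := by
          have := mul_le_mul m1 m2 (mul_nonneg hl0 hr1) (mul_nonneg hb0 ht1)
          have e1 : (t0 * r1) * (b1 * l0) = (b1 * t0) * (l0 * r1) := by ring
          have e2 : (t1 * l1) * (b0 * r0) = (b0 * t1) * (r0 * l1) := by ring
          rw [e1, e2]; exact this
        exact arith_cross C' (-C) (t1 * l1) (b1 * l0) (t0 * r1) (b0 * r0) hC'pos hc
          (mul_nonneg ht1 hl1) (mul_nonneg hb0 hr0) J1 J2 m3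

/-- Sign analysis, abstract form.  `A, A', C, C'` are the (scaled) deviations of the two cumulative
functions at the four contact points. -/
theorem arith_core (b0 b1 t0 t1 l0 l1 r0 r1 w h η A A' C C' : ℝ)
    (hb0 : 0 ≤ b0) (hb1 : 0 ≤ b1) (ht0 : 0 ≤ t0) (ht1 : 0 ≤ t1)
    (hl0 : 0 ≤ l0) (hl1 : 0 ≤ l1) (hr0 : 0 ≤ r0) (hr1 : 0 ≤ r1)
    (hb : b0 + b1 = w) (ht : t0 + t1 = w) (hl : l0 + l1 = h) (hr : r0 + r1 = h)
    (hw : 0 < w) (hh : 0 < h) (hη : 0 < η)
    (e1 : η * (t0 * l1) ≤ A' * l1 - C * t0)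
    (e2 : η * (t1 * r1) ≤ -A' * r1 - C' * t1)
    (e3 : η * (b1 * r0) ≤ -A * r0 + C' * b1)
    (e4 : η * (b0 * l0) ≤ A * l0 + C * b0)
    (e5 : l0 ≤ r0 → η * (r0 - l0) ≤ C' - C)
    (e5' : r0 ≤ l0 → η * (l0 - r0) ≤ C - C')
    (e6 : b0 ≤ t0 → η * (t0 - b0) ≤ A' - A)
    (e6' : t0 ≤ b0 → η * (b0 - t0) ≤ A - A')
    (cL0 : l0 = 0 → C = 0) (cL1 : l1 = 0 → C = 0) (cR0 : r0 = 0 → C' = 0) (cR1 : r1 = 0 → C' = 0) :
    False := by
  have I := arith_I t0 t1 l1 r1 w η A' C C' hl1 hr1 ht e1 e2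
  have II := arith_II b0 b1 l0 r0 w η A C C' hl0 hr0 hb e3 e4
  rcases le_total l0 r0 with hlr | hlr
  · exact arith_branch b0 b1 t0 t1 l0 l1 r0 r1 w h η C C' hb0 hb1 ht0 ht1 hl0 hl1 hr0 hr1 hb ht hl hr
      hw hh hη I II hlr (e5 hlr)
      (fun hbt => arith_IIIa b0 t0 t1 l0 r1 w η A A' C C' hl0 hr1 ht e2 e4 (e6 hbt)) cL0 cR1
  · refine arith_branch t0 t1 b0 b1 l1 l0 r1 r0 w h η (-C) (-C') ht0 ht1 hb0 hb1 hl1 hl0 hr1 hr0 ht hb
      (by linarith) (by linarith) hw hh hη ?_ ?_ (by linarith) ?_ ?_ ?_ ?_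
    · have : η * (l0 * r0 * w) = η * (l0 * r0 * w) := rfl
      linarith
    · linarith
    · have := e5' hlr
      have e : η * (r1 - l1) = η * (l0 - r0) := by
        have : r1 - l1 = l0 - r0 := by linarith
        rw [this]
      linarith
    · intro hbt
      have := arith_IIIb b0 b1 t0 l1 r0 w η A A' C C' hl1 hr0 hb e1 e3 (e6' hbt)
      linarith
    · intro h0
      rw [cL1 h0]; simp
    · intro h0
      rw [cR0 h0]; simp

/-- The arithmetic lemma in raw form: `gB, gT, e` are the masses of `E₂` between the abscissa of the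
left contact point and those of the bottom, top and right contact points; `kL, kR, f` are the masses
of `E₁` between the ordinate of the bottom contact point and those of the left, right and top ones. -/
theorem arith_raw (b0 b1 t0 t1 l0 l1 r0 r1 w h gB gT e kL kR f : ℝ)
    (hb0 : 0 ≤ b0) (hb1 : 0 ≤ b1) (ht0 : 0 ≤ t0) (ht1 : 0 ≤ t1)
    (hl0 : 0 ≤ l0) (hl1 : 0 ≤ l1) (hr0 : 0 ≤ r0) (hr1 : 0 ≤ r1)
    (hb : b0 + b1 = w) (ht : t0 + t1 = w) (hl : l0 + l1 = h) (hr : r0 + r1 = h)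
    (hw : 0 < w) (hh : 0 < h)
    (LT : t0 * l1 ≤ gT * l1 + (f - kL) * t0)
    (TR : t1 * r1 ≤ (e - gT) * r1 + (f - kR) * t1)
    (BR : b1 * r0 ≤ (e - gB) * r0 + kR * b1)
    (LB : b0 * l0 ≤ gB * l0 + kL * b0)
    (LR1 : l0 ≤ r0 → w * (r0 - l0) ≤ e * (r0 - l0) + (kR - kL) * w)
    (LR2 : r0 ≤ l0 → w * (l0 - r0) ≤ e * (l0 - r0) + (kL - kR) * w)
    (BT1 : b0 ≤ t0 → (t0 - b0) * h ≤ (gT - gB) * h + f * (t0 - b0))
    (BT2 : t0 ≤ b0 → (b0 - t0) * h ≤ (gB - gT) * h + f * (b0 - t0))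
    (kL0 : l0 = 0 → kL = 0) (kL1 : l1 = 0 → kL = f) (kR0 : r0 = 0 → kR = 0) (kR1 : r1 = 0 → kR = f) :
    w * h ≤ f * w + e * h := by
  by_contra hcon
  have hη : 0 < w * h - f * w - e * h := by linarith [not_le.mp hcon]
  have hwh : 0 ≤ w * h := (mul_pos hw hh).le
  refine arith_core b0 b1 t0 t1 l0 l1 r0 r1 w h (w * h - f * w - e * h)
    (h * (w * gB - e * b0)) (h * (w * gT - e * t0)) (w * (h * kL - f * l0)) (w * (h * kR - f * r0))
    hb0 hb1 ht0 ht1 hl0 hl1 hr0 hr1 hb ht hl hr hw hh hη ?_ ?_ ?_ ?_ ?_ ?_ ?_ ?_ ?_ ?_ ?_ ?_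
  · have := mul_le_mul_of_nonneg_left LT hwh
    have e0 : h * (w * gT - e * t0) * l1 - w * (h * kL - f * l0) * t0
        - (w * h - f * w - e * h) * (t0 * l1)
        = w * h * (gT * l1 + (f - kL) * t0) - w * h * (t0 * l1) + w * f * t0 * (l0 + l1 - h) := by ring
    rw [hl] at e0
    linarith
  · have := mul_le_mul_of_nonneg_left TR hwh
    have e0 : -(h * (w * gT - e * t0)) * r1 - w * (h * kR - f * r0) * t1
        - (w * h - f * w - e * h) * (t1 * r1)
        = w * h * ((e - gT) * r1 + (f - kR) * t1) - w * h * (t1 * r1)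
          + w * f * t1 * (r0 + r1 - h) + h * e * r1 * (t0 + t1 - w) := by ring
    rw [hr, ht] at e0
    linarith
  · have := mul_le_mul_of_nonneg_left BR hwh
    have e0 : -(h * (w * gB - e * b0)) * r0 + w * (h * kR - f * r0) * b1
        - (w * h - f * w - e * h) * (b1 * r0)
        = w * h * ((e - gB) * r0 + kR * b1) - w * h * (b1 * r0) + h * e * r0 * (b0 + b1 - w) := by ring
    rw [hb] at e0
    linarith
  · have := mul_le_mul_of_nonneg_left LB hwh
    have e0 : h * (w * gB - e * b0) * l0 + w * (h * kL - f * l0) * b0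
        - (w * h - f * w - e * h) * (b0 * l0)
        = w * h * (gB * l0 + kL * b0) - w * h * (b0 * l0) := by ring
    linarith
  · intro hlr
    have := mul_le_mul_of_nonneg_left (LR1 hlr) hh.le
    have e0 : w * (h * kR - f * r0) - w * (h * kL - f * l0) - (w * h - f * w - e * h) * (r0 - l0)
        = h * (e * (r0 - l0) + (kR - kL) * w) - h * (w * (r0 - l0)) := by ring
    linarith
  · intro hlr
    have := mul_le_mul_of_nonneg_left (LR2 hlr) hh.le
    have e0 : w * (h * kL - f * l0) - w * (h * kR - f * r0) - (w * h - f * w - e * h) * (l0 - r0)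
        = h * (e * (l0 - r0) + (kL - kR) * w) - h * (w * (l0 - r0)) := by ring
    linarith
  · intro hbt
    have := mul_le_mul_of_nonneg_left (BT1 hbt) hw.le
    have e0 : h * (w * gT - e * t0) - h * (w * gB - e * b0) - (w * h - f * w - e * h) * (t0 - b0)
        = w * ((gT - gB) * h + f * (t0 - b0)) - w * ((t0 - b0) * h) := by ring
    linarith
  · intro hbt
    have := mul_le_mul_of_nonneg_left (BT2 hbt) hw.le
    have e0 : h * (w * gB - e * b0) - h * (w * gT - e * t0) - (w * h - f * w - e * h) * (b0 - t0)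
        = w * ((gB - gT) * h + f * (b0 - t0)) - w * ((b0 - t0) * h) := by ring
    linarith
  · intro h0
    rw [kL0 h0, h0]; ring
  · intro h0
    have : l0 = h := by linarith
    rw [kL1 h0, this]; ring
  · intro h0
    rw [kR0 h0, h0]; ring
  · intro h0
    have : r0 = h := by linarith
    rw [kR1 h0, this]; ring

end Vale.Agent.Lib.P243
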