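import Mathlib

/-!
Definitions for problem P243 (cylinder coverings of convex bodies in Euclidean 3-space).
-/

namespace Vale.Agent.Lib.P243

open MeasureTheory

/-- Euclidean 3-space. -/
abbrev Space : Type := EuclideanSpace ℝ (Fin 3)

/-- The plane `u^⊥` through the origin orthogonal to `u`, as a linear subspace. -/
noncomputable def perp (u : Space) : Submodule ℝ Space := (ℝ ∙ u)ᗮ

/-- The plane `u^⊥` as a type. -/
def Plane (u : Space) : Type := ↥(perp u)

/-- The inclusion of the plane `u^⊥` into space. -/
def Plane.val {u : Space} (b : Plane u) : Space := Subtype.val b

/-- The plane carries the norm induced from space. -/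
noncomputable instance Plane.normedAddCommGroup (u : Space) : NormedAddCommGroup (Plane u) :=
  Submodule.normedAddCommGroup (perp u)

/-- The plane carries the inner product induced from space. -/
noncomputable instance Plane.innerProductSpace (u : Space) : InnerProductSpace ℝ (Plane u) :=
  Submodule.innerProductSpace (perp u)

instance Plane.finiteDimensional (u : Space) : FiniteDimensional ℝ (Plane u) :=
  FiniteDimensional.finiteDimensional_submodule (perp u)

/-- The plane carries the sigma-algebra induced from space; it is the Borel sigma-algebra. -/
instance Plane.measurableSpace (u : Space) : MeasurableSpace (Plane u) :=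
  Subtype.instMeasurableSpace

instance Plane.borelSpace (u : Space) : BorelSpace (Plane u) :=
  Subtype.borelSpace _

/-- The planar Lebesgue (outer) measure of a subset `B` of the plane `u^⊥`: Mathlib's `volume` of the
two-dimensional inner product space `u^⊥`. -/
noncomputable def area (u : Space) (B : Set (Plane u)) : ENNReal := volume B

/-- The orthogonal projection of `K` onto the plane `u^⊥`: the set of all `b ∈ u^⊥` such that the line
`b + ℝ u` meets `K`. -/
def shadow (K : Set Space) (u : Space) : Set (Plane u) := {b | ∃ s : ℝ, b.val + s • u ∈ K}

/-- The cylinder `B + ℝ u` with base `B ⊆ u^⊥`. -/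
def cylinder (u : Space) (B : Set (Plane u)) : Set Space :=
  {x | ∃ b ∈ B, ∃ s : ℝ, x = b.val + s • u}

end Vale.Agent.Lib.P243
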