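import Mathlib
import Vale.Agent.Lib.P243.Arith

/-!
The planar two-direction covering lemma: if a planar convex set is covered by
`{y ∈ E₁} ∪ {x ∈ E₂}`, then `|E₁| / height + |E₂| / width ≥ 1`.
-/

namespace Vale.Agent.Lib.P243

open MeasureTheory Set intervalIntegral

/-- The indicator function of a subset of the line. -/
noncomputable def ind (E : Set ℝ) : ℝ → ℝ := E.indicator (fun _ => (1 : ℝ))

theorem ind_nonneg (E : Set ℝ) (x : ℝ) : 0 ≤ ind E x := by
  unfold ind; exact indicator_nonneg (fun _ _ => zero_le_one) x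

theorem ind_le_one (E : Set ℝ) (x : ℝ) : ind E x ≤ 1 := by
  unfold ind; exact indicator_le_self' (fun _ _ => zero_le_one) x

theorem ind_of_mem {E : Set ℝ} {x : ℝ} (h : x ∈ E) : ind E x = 1 := by
  unfold ind; exact indicator_of_mem h _

theorem measurable_ind {E : Set ℝ} (hE : MeasurableSet E) : Measurable (ind E) :=
  measurable_const.indicator hE

theorem bdd_intervalIntegrable (f : ℝ → ℝ) (hf : Measurable f) (hb : ∀ x, |f x| ≤ 1) (a b : ℝ) :
    IntervalIntegrable f volume a b := by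
  rw [intervalIntegrable_iff]
  refine Measure.integrableOn_of_bounded (M := 1) ?_ hf.aestronglyMeasurable ?_
  · simp
  · exact Filter.Eventually.of_forall (fun x => by simpa using hb x)

theorem ind_abs_le (E : Set ℝ) (x : ℝ) : |ind E x| ≤ 1 := by
  rw [abs_of_nonneg (ind_nonneg E x)]; exact ind_le_one E x

theorem ind_intervalIntegrable {E : Set ℝ} (hE : MeasurableSet E) (a b : ℝ) :
    IntervalIntegrable (ind E) volume a b :=
  bdd_intervalIntegrable _ (measurable_ind hE) (ind_abs_le E) a b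

/-- The (signed) mass of `E` between `a` and `b`. -/
noncomputable def mass (E : Set ℝ) (a b : ℝ) : ℝ := ∫ s in a..b, ind E s

theorem mass_nonneg (E : Set ℝ) {a b : ℝ} (h : a ≤ b) : 0 ≤ mass E a b :=
  integral_nonneg h (fun x _ => ind_nonneg E x)

theorem mass_self (E : Set ℝ) (a : ℝ) : mass E a a = 0 := integral_same

theorem mass_add {E : Set ℝ} (hE : MeasurableSet E) (a b c : ℝ) :
    mass E a b + mass E b c = mass E a c :=
  integral_add_adjacent_intervals (ind_intervalIntegrable hE a b) (ind_intervalIntegrable hE b c)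

theorem mass_le_volume {E : Set ℝ} (hE : MeasurableSet E) {a b : ℝ} (h : a ≤ b) :
    ENNReal.ofReal (mass E a b) ≤ volume E := by
  unfold mass ind
  rw [integral_of_le h, MeasureTheory.integral_indicator hE]
  simp only [MeasureTheory.integral_const, smul_eq_mul, mul_one]
  rw [Measure.restrict_restrict hE]
  simp only [measureReal_restrict_apply MeasurableSet.univ, univ_inter]
  rw [measureReal_def, ENNReal.ofReal_toReal]
  · exact measure_mono inter_subset_left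
  · exact ne_of_lt (lt_of_le_of_lt (measure_mono inter_subset_right) (by simp))

theorem segment_aux {E1 E2 : Set ℝ} (hE1 : MeasurableSet E1) (hE2 : MeasurableSet E2)
    (x0 x1 y0 y1 : ℝ) (hx : x1 - x0 ≠ 0) (hy : y1 - y0 ≠ 0)
    (hcov : ∀ s ∈ Icc (0 : ℝ) 1, y0 + (y1 - y0) * s ∈ E1 ∨ x0 + (x1 - x0) * s ∈ E2) :
    1 ≤ (x1 - x0)⁻¹ * mass E2 x0 x1 + (y1 - y0)⁻¹ * mass E1 y0 y1 := by
  have i2 : IntervalIntegrable (fun s => ind E2 (x0 + (x1 - x0) * s)) volume 0 1 :=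
    bdd_intervalIntegrable _ ((measurable_ind hE2).comp (by fun_prop)) (fun s => ind_abs_le E2 _) 0 1
  have i1 : IntervalIntegrable (fun s => ind E1 (y0 + (y1 - y0) * s)) volume 0 1 :=
    bdd_intervalIntegrable _ ((measurable_ind hE1).comp (by fun_prop)) (fun s => ind_abs_le E1 _) 0 1
  have h1 : ∫ _s in (0 : ℝ)..1, (1 : ℝ) ≤
      ∫ s in (0 : ℝ)..1, (ind E2 (x0 + (x1 - x0) * s) + ind E1 (y0 + (y1 - y0) * s)) := by
    refine integral_mono_on zero_le_one intervalIntegrable_const (i2.add i1) ?_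
    intro s hs
    rcases hcov s hs with h | h
    · rw [ind_of_mem h]
      have := ind_nonneg E2 (x0 + (x1 - x0) * s)
      linarith
    · rw [ind_of_mem h]
      have := ind_nonneg E1 (y0 + (y1 - y0) * s)
      linarith
  rw [integral_add i2 i1, integral_comp_add_mul _ hx, integral_comp_add_mul _ hy] at h1
  simp only [intervalIntegral.integral_const, sub_zero, smul_eq_mul, mul_one, mul_zero,
    add_zero] at h1
  have e1 : x0 + (x1 - x0) = x1 := by ring
  have e2 : y0 + (y1 - y0) = y1 := by ring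
  rw [e1, e2] at h1
  exact h1

theorem mass_symm (E : Set ℝ) (a b : ℝ) : mass E b a = - mass E a b := integral_symm a b

theorem segment_incr {E1 E2 : Set ℝ} (hE1 : MeasurableSet E1) (hE2 : MeasurableSet E2)
    (x0 x1 y0 y1 : ℝ) (hx : x0 ≤ x1) (hy : y0 ≤ y1)
    (hcov : ∀ s ∈ Icc (0 : ℝ) 1, y0 + (y1 - y0) * s ∈ E1 ∨ x0 + (x1 - x0) * s ∈ E2) :
    (x1 - x0) * (y1 - y0) ≤ mass E2 x0 x1 * (y1 - y0) + mass E1 y0 y1 * (x1 - x0) := by
  have m2 := mass_nonneg E2 hx
  have m1 := mass_nonneg E1 hy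
  rcases eq_or_lt_of_le hx with hx0 | hx0
  · rw [hx0]; simp only [sub_self, zero_mul, mul_zero, add_zero]
    rw [hx0] at m2
    exact mul_nonneg m2 (sub_nonneg.mpr hy)
  rcases eq_or_lt_of_le hy with hy0 | hy0
  · rw [hy0]; simp only [sub_self, mul_zero, zero_add]
    rw [hy0] at m1
    exact mul_nonneg m1 (sub_nonneg.mpr hx)
  have hx' : 0 < x1 - x0 := sub_pos.mpr hx0
  have hy' : 0 < y1 - y0 := sub_pos.mpr hy0
  have h := segment_aux hE1 hE2 x0 x1 y0 y1 hx'.ne' hy'.ne' hcov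
  have h2 := mul_le_mul_of_nonneg_left h (mul_pos hx' hy').le
  have e : (x1 - x0) * (y1 - y0) * ((x1 - x0)⁻¹ * mass E2 x0 x1 + (y1 - y0)⁻¹ * mass E1 y0 y1)
      = mass E2 x0 x1 * (y1 - y0) + mass E1 y0 y1 * (x1 - x0) := by
    field_simp
  rw [e] at h2
  linarith

theorem segment_decr {E1 E2 : Set ℝ} (hE1 : MeasurableSet E1) (hE2 : MeasurableSet E2)
    (x0 x1 y0 y1 : ℝ) (hx : x0 ≤ x1) (hy : y1 ≤ y0)
    (hcov : ∀ s ∈ Icc (0 : ℝ) 1, y0 + (y1 - y0) * s ∈ E1 ∨ x0 + (x1 - x0) * s ∈ E2) :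
    (x1 - x0) * (y0 - y1) ≤ mass E2 x0 x1 * (y0 - y1) + mass E1 y1 y0 * (x1 - x0) := by
  have m2 := mass_nonneg E2 hx
  have m1 := mass_nonneg E1 hy
  rcases eq_or_lt_of_le hx with hx0 | hx0
  · rw [hx0]; simp only [sub_self, zero_mul, mul_zero, add_zero]
    rw [hx0] at m2
    exact mul_nonneg m2 (sub_nonneg.mpr hy)
  rcases eq_or_lt_of_le hy with hy0 | hy0
  · rw [hy0]; simp only [sub_self, mul_zero, zero_add]
    rw [hy0] at m1
    exact mul_nonneg m1 (sub_nonneg.mpr hx)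
  have hx' : 0 < x1 - x0 := sub_pos.mpr hx0
  have hy' : 0 < y0 - y1 := sub_pos.mpr hy0
  have hy'' : y1 - y0 ≠ 0 := (sub_neg.mpr hy0).ne
  have h := segment_aux hE1 hE2 x0 x1 y0 y1 hx'.ne' hy'' hcov
  rw [mass_symm E1 y1 y0] at h
  have h2 := mul_le_mul_of_nonneg_left h (mul_pos hx' hy').le
  have e3 : (y1 - y0)⁻¹ * -mass E1 y1 y0 = (y0 - y1)⁻¹ * mass E1 y1 y0 := by
    have : y1 - y0 = -(y0 - y1) := by ring
    rw [this, inv_neg]; ring
  rw [e3] at h2
  have e : (x1 - x0) * (y0 - y1) * ((x1 - x0)⁻¹ * mass E2 x0 x1 + (y0 - y1)⁻¹ * mass E1 y1 y0)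
      = mass E2 x0 x1 * (y0 - y1) + mass E1 y1 y0 * (x1 - x0) := by
    field_simp
  rw [e] at h2
  linarith

/-- Covering of a segment inside a convex set. -/
theorem cover_segment {S : Set (ℝ × ℝ)} (hS : Convex ℝ S) {E1 E2 : Set ℝ}
    (hcov : ∀ p ∈ S, p.2 ∈ E1 ∨ p.1 ∈ E2) {P P' : ℝ × ℝ} (hP : P ∈ S) (hP' : P' ∈ S) :
    ∀ s ∈ Icc (0 : ℝ) 1, P.2 + (P'.2 - P.2) * s ∈ E1 ∨ P.1 + (P'.1 - P.1) * s ∈ E2 := by
  intro s hs
  have hmem := hS.add_smul_sub_mem hP hP' hs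
  have := hcov _ hmem
  simp only [Prod.snd_add, Prod.smul_snd, Prod.snd_sub, smul_eq_mul, Prod.fst_add, Prod.smul_fst,
    Prod.fst_sub] at this
  rcases this with h | h
  · left; rw [mul_comm]; exact h
  · right; rw [mul_comm]; exact h

/-- The planar lemma. -/
theorem planar {S : Set (ℝ × ℝ)} (hS : Convex ℝ S) {E1 E2 : Set ℝ}
    (hE1 : MeasurableSet E1) (hE2 : MeasurableSet E2)
    (hcov : ∀ p ∈ S, p.2 ∈ E1 ∨ p.1 ∈ E2) {L R B T : ℝ × ℝ}
    (hL : L ∈ S) (hR : R ∈ S) (hB : B ∈ S) (hT : T ∈ S)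
    (hLB : L.1 ≤ B.1) (hBR : B.1 ≤ R.1) (hLT : L.1 ≤ T.1) (hTR : T.1 ≤ R.1)
    (hBL : B.2 ≤ L.2) (hLT' : L.2 ≤ T.2) (hBR' : B.2 ≤ R.2) (hRT : R.2 ≤ T.2)
    (hw : L.1 < R.1) (hh : B.2 < T.2) :
    (R.1 - L.1) * (T.2 - B.2) ≤ mass E1 B.2 T.2 * (R.1 - L.1) + mass E2 L.1 R.1 * (T.2 - B.2) := by
  have a2 := fun a b c => mass_add hE2 a b c
  have a1 := fun a b c => mass_add hE1 a b c
  refine arith_raw (B.1 - L.1) (R.1 - B.1) (T.1 - L.1) (R.1 - T.1) (L.2 - B.2) (T.2 - L.2)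
    (R.2 - B.2) (T.2 - R.2) (R.1 - L.1) (T.2 - B.2) (mass E2 L.1 B.1) (mass E2 L.1 T.1)
    (mass E2 L.1 R.1) (mass E1 B.2 L.2) (mass E1 B.2 R.2) (mass E1 B.2 T.2)
    (by linarith) (by linarith) (by linarith) (by linarith) (by linarith) (by linarith)
    (by linarith) (by linarith) (by ring) (by ring) (by ring) (by ring) (by linarith) (by linarith)
    ?_ ?_ ?_ ?_ ?_ ?_ ?_ ?_ ?_ ?_ ?_ ?_
  · have := segment_incr hE1 hE2 L.1 T.1 L.2 T.2 hLT hLT' (cover_segment hS hcov hL hT)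
    have e := a1 B.2 L.2 T.2
    have : mass E1 L.2 T.2 = mass E1 B.2 T.2 - mass E1 B.2 L.2 := by linarith
    rw [← this]; assumption
  · have := segment_decr hE1 hE2 T.1 R.1 T.2 R.2 hTR hRT (cover_segment hS hcov hT hR)
    have e := a1 B.2 R.2 T.2
    have e' := a2 L.1 T.1 R.1
    have h1 : mass E1 R.2 T.2 = mass E1 B.2 T.2 - mass E1 B.2 R.2 := by linarith
    have h2 : mass E2 T.1 R.1 = mass E2 L.1 R.1 - mass E2 L.1 T.1 := by linarith
    rw [← h1, ← h2]; assumption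
  · have := segment_incr hE1 hE2 B.1 R.1 B.2 R.2 hBR hBR' (cover_segment hS hcov hB hR)
    have e' := a2 L.1 B.1 R.1
    have h2 : mass E2 B.1 R.1 = mass E2 L.1 R.1 - mass E2 L.1 B.1 := by linarith
    rw [← h2]; assumption
  · exact segment_decr hE1 hE2 L.1 B.1 L.2 B.2 hLB hBL (cover_segment hS hcov hL hB)
  · intro hlr
    have hlr' : L.2 ≤ R.2 := by linarith
    have := segment_incr hE1 hE2 L.1 R.1 L.2 R.2 hw.le hlr' (cover_segment hS hcov hL hR)
    have e := a1 B.2 L.2 R.2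
    have h1 : mass E1 L.2 R.2 = mass E1 B.2 R.2 - mass E1 B.2 L.2 := by linarith
    have h3 : R.2 - B.2 - (L.2 - B.2) = R.2 - L.2 := by ring
    rw [← h1, h3]; assumption
  · intro hlr
    have hlr' : R.2 ≤ L.2 := by linarith
    have := segment_decr hE1 hE2 L.1 R.1 L.2 R.2 hw.le hlr' (cover_segment hS hcov hL hR)
    have e := a1 B.2 R.2 L.2
    have h1 : mass E1 R.2 L.2 = mass E1 B.2 L.2 - mass E1 B.2 R.2 := by linarith
    have h3 : L.2 - B.2 - (R.2 - B.2) = L.2 - R.2 := by ring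
    rw [← h1, h3]; assumption
  · intro hbt
    have hbt' : B.1 ≤ T.1 := by linarith
    have := segment_incr hE1 hE2 B.1 T.1 B.2 T.2 hbt' hh.le (cover_segment hS hcov hB hT)
    have e' := a2 L.1 B.1 T.1
    have h2 : mass E2 B.1 T.1 = mass E2 L.1 T.1 - mass E2 L.1 B.1 := by linarith
    have h3 : T.1 - L.1 - (B.1 - L.1) = T.1 - B.1 := by ring
    rw [← h2, h3]; assumption
  · intro hbt
    have hbt' : T.1 ≤ B.1 := by linarith
    have := segment_decr hE1 hE2 T.1 B.1 T.2 B.2 hbt' hh.le (cover_segment hS hcov hT hB)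
    have e' := a2 L.1 T.1 B.1
    have h2 : mass E2 T.1 B.1 = mass E2 L.1 B.1 - mass E2 L.1 T.1 := by linarith
    have h3 : B.1 - L.1 - (T.1 - L.1) = B.1 - T.1 := by ring
    rw [← h2, h3]; assumption
  · intro h0
    have : L.2 = B.2 := by linarith
    rw [this]; exact mass_self _ _
  · intro h0
    have : L.2 = T.2 := by linarith
    rw [this]
  · intro h0
    have : R.2 = B.2 := by linarith
    rw [this]; exact mass_self _ _
  · intro h0
    have : R.2 = T.2 := by linarith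
    rw [this]

end Vale.Agent.Lib.P243
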