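import Mathlib
import Vale.Agent.Lib.P243.Planar
import Vale.Agent.Lib.P243.Area

/-!
The two-cylinder theorem in coordinates `(t, x, y)`: the first cylinder is parallel to the `x`-axis,
the second one to the `y`-axis.
-/

namespace Vale.Agent.Lib.P243

open MeasureTheory Set

/-- Projection along the `x`-axis. -/
def q1 (p : ℝ × ℝ × ℝ) : ℝ × ℝ := (p.1, p.2.2)

/-- Projection along the `y`-axis. -/
def q2 (p : ℝ × ℝ × ℝ) : ℝ × ℝ := (p.1, p.2.1)

theorem continuous_q1 : Continuous q1 := by unfold q1; fun_prop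

theorem continuous_q2 : Continuous q2 := by unfold q2; fun_prop

theorem slice_bound {K : Set (ℝ × ℝ × ℝ)} (hK : Convex ℝ K) {B1 B2 : Set (ℝ × ℝ)}
    (hB1 : MeasurableSet B1) (hB2 : MeasurableSet B2)
    (hcov : ∀ p ∈ K, q1 p ∈ B1 ∨ q2 p ∈ B2)
    {L R B T pa : ℝ × ℝ × ℝ} (hL : L ∈ K) (hR : R ∈ K) (hB : B ∈ K) (hT : T ∈ K) (hpa : pa ∈ K)
    (tm : ℝ) (hL1 : L.1 = tm) (hR1 : R.1 = tm) (hBt : B.1 = tm) (hT1 : T.1 = tm)
    (hLB : L.2.1 ≤ B.2.1) (hBR : B.2.1 ≤ R.2.1) (hLT : L.2.1 ≤ T.2.1) (hTR : T.2.1 ≤ R.2.1)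
    (hBL : B.2.2 ≤ L.2.2) (hLT' : L.2.2 ≤ T.2.2) (hBR' : B.2.2 ≤ R.2.2) (hRT : R.2.2 ≤ T.2.2)
    (hw : L.2.1 < R.2.1) (hh : B.2.2 < T.2.2) (s : ℝ) (hs0 : 0 ≤ s) (hs1 : s < 1) :
    ENNReal.ofReal ((1 - s) * ((R.2.1 - L.2.1) * (T.2.2 - B.2.2))) ≤
      volume (Prod.mk (tm + s * (pa.1 - tm)) ⁻¹' B1) * ENNReal.ofReal (R.2.1 - L.2.1) +
      volume (Prod.mk (tm + s * (pa.1 - tm)) ⁻¹' B2) * ENNReal.ofReal (T.2.2 - B.2.2) := by
  set t := tm + s * (pa.1 - tm) with ht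
  set S : Set (ℝ × ℝ) := {z | (t, z) ∈ K} with hS
  have hSconv : Convex ℝ S := by
    intro z1 h1 z2 h2 a b ha hb hab
    have := hK h1 h2 ha hb hab
    have e : a • (t, z1) + b • (t, z2) = (t, a • z1 + b • z2) := by
      ext
      · simp only [Prod.fst_add, Prod.smul_fst, smul_eq_mul]
        rw [← add_mul, hab, one_mul]
      · simp
      · simp
    rw [e] at this
    exact this
  have hmem : ∀ Z ∈ K, Z.1 = tm → Z.2 + s • (pa.2 - Z.2) ∈ S := by
    intro Z hZ hZ1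
    have := hK.add_smul_sub_mem hZ hpa ⟨hs0, hs1.le⟩
    have e : Z + s • (pa - Z) = (t, Z.2 + s • (pa.2 - Z.2)) := by
      ext
      · simp [ht, hZ1]
      · simp
      · simp
    rw [e] at this
    exact this
  set E1 : Set ℝ := Prod.mk t ⁻¹' B1 with hE1
  set E2 : Set ℝ := Prod.mk t ⁻¹' B2 with hE2
  have mE1 : MeasurableSet E1 := measurable_prodMk_left hB1
  have mE2 : MeasurableSet E2 := measurable_prodMk_left hB2
  have hcovS : ∀ z ∈ S, z.2 ∈ E1 ∨ z.1 ∈ E2 := by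
    intro z hz
    exact hcov (t, z) hz
  have h1s : 0 < 1 - s := by linarith
  have key := planar hSconv mE1 mE2 hcovS (hmem L hL hL1) (hmem R hR hR1) (hmem B hB hBt)
    (hmem T hT hT1)
    (by simp only [Prod.fst_add, Prod.smul_fst, Prod.fst_sub, smul_eq_mul]; nlinarith)
    (by simp only [Prod.fst_add, Prod.smul_fst, Prod.fst_sub, smul_eq_mul]; nlinarith)
    (by simp only [Prod.fst_add, Prod.smul_fst, Prod.fst_sub, smul_eq_mul]; nlinarith)
    (by simp only [Prod.fst_add, Prod.smul_fst, Prod.fst_sub, smul_eq_mul]; nlinarith)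
    (by simp only [Prod.snd_add, Prod.smul_snd, Prod.snd_sub, smul_eq_mul]; nlinarith)
    (by simp only [Prod.snd_add, Prod.smul_snd, Prod.snd_sub, smul_eq_mul]; nlinarith)
    (by simp only [Prod.snd_add, Prod.smul_snd, Prod.snd_sub, smul_eq_mul]; nlinarith)
    (by simp only [Prod.snd_add, Prod.smul_snd, Prod.snd_sub, smul_eq_mul]; nlinarith)
    (by simp only [Prod.fst_add, Prod.smul_fst, Prod.fst_sub, smul_eq_mul]; nlinarith)
    (by simp only [Prod.snd_add, Prod.smul_snd, Prod.snd_sub, smul_eq_mul]; nlinarith)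
  simp only [Prod.fst_add, Prod.smul_fst, Prod.fst_sub, Prod.snd_add, Prod.smul_snd, Prod.snd_sub,
    smul_eq_mul] at key
  set m1 := mass E1 (B.2.2 + s * (pa.2.2 - B.2.2)) (T.2.2 + s * (pa.2.2 - T.2.2)) with hm1
  set m2 := mass E2 (L.2.1 + s * (pa.2.1 - L.2.1)) (R.2.1 + s * (pa.2.1 - R.2.1)) with hm2
  have hm1n : 0 ≤ m1 := mass_nonneg _ (by nlinarith)
  have hm2n : 0 ≤ m2 := mass_nonneg _ (by nlinarith)
  have hm1v : ENNReal.ofReal m1 ≤ volume E1 := mass_le_volume mE1 (by nlinarith)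
  have hm2v : ENNReal.ofReal m2 ≤ volume E2 := mass_le_volume mE2 (by nlinarith)
  set w := R.2.1 - L.2.1 with hwdef
  set h := T.2.2 - B.2.2 with hhdef
  have hwpos : 0 < w := by linarith
  have hhpos : 0 < h := by linarith
  have ew : R.2.1 + s * (pa.2.1 - R.2.1) - (L.2.1 + s * (pa.2.1 - L.2.1)) = (1 - s) * w := by
    rw [hwdef]; ring
  have eh : T.2.2 + s * (pa.2.2 - T.2.2) - (B.2.2 + s * (pa.2.2 - B.2.2)) = (1 - s) * h := by
    rw [hhdef]; ring
  rw [ew, eh] at key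
  have key2 : (1 - s) * (w * h) ≤ m1 * w + m2 * h := by
    have e : (1 - s) * w * ((1 - s) * h) = (1 - s) * ((1 - s) * (w * h)) := by ring
    have e' : m1 * ((1 - s) * w) + m2 * ((1 - s) * h) = (1 - s) * (m1 * w + m2 * h) := by ring
    rw [e, e'] at key
    exact le_of_mul_le_mul_left key h1s
  calc ENNReal.ofReal ((1 - s) * (w * h)) ≤ ENNReal.ofReal (m1 * w + m2 * h) :=
        ENNReal.ofReal_le_ofReal key2
    _ = ENNReal.ofReal m1 * ENNReal.ofReal w + ENNReal.ofReal m2 * ENNReal.ofReal h := by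
        rw [ENNReal.ofReal_add (mul_nonneg hm1n hwpos.le) (mul_nonneg hm2n hhpos.le),
          ENNReal.ofReal_mul hm1n, ENNReal.ofReal_mul hm2n]
    _ ≤ volume E1 * ENNReal.ofReal w + volume E2 * ENNReal.ofReal h := by gcongr

end Vale.Agent.Lib.P243
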