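import Mathlib
import Vale.Agent.Lib.P243.Core

/-!
The two-cylinder theorem in coordinates.
-/

namespace Vale.Agent.Lib.P243

open MeasureTheory Set

/-- Final computation in `ENNReal`. -/
theorem ennreal_final (β1 β2 V1 V2 : ENNReal) (hh a b : ℝ) (hhh : 0 < hh) (ha : 0 < a) (hb : 0 < b)
    (hV1 : V1 ≤ ENNReal.ofReal (2 * hh) * ENNReal.ofReal a)
    (hV2 : V2 ≤ ENNReal.ofReal (2 * hh) * ENNReal.ofReal b)
    (hlow : ENNReal.ofReal (b * a * hh) ≤ β1 * ENNReal.ofReal b + β2 * ENNReal.ofReal a) :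
    1 / 2 ≤ β1 / V1 + β2 / V2 := by
  set x := ENNReal.ofReal (2 * hh) with hx
  set α := ENNReal.ofReal a with hα
  set β := ENNReal.ofReal b with hβ
  have hx0 : x ≠ 0 := by rw [hx]; simp; linarith
  have hxt : x ≠ ⊤ := ENNReal.ofReal_ne_top
  have hα0 : α ≠ 0 := by rw [hα]; simp; linarith
  have hαt : α ≠ ⊤ := ENNReal.ofReal_ne_top
  have hβ0 : β ≠ 0 := by rw [hβ]; simp; linarith
  have hβt : β ≠ ⊤ := ENNReal.ofReal_ne_top
  have h1 : β1 / (x * α) ≤ β1 / V1 := ENNReal.div_le_div_left hV1 _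
  have h2 : β2 / (x * β) ≤ β2 / V2 := ENNReal.div_le_div_left hV2 _
  have e1 : β1 / (x * α) = β1 * β / (x * α * β) := (ENNReal.mul_div_mul_right _ _ hβ0 hβt).symm
  have e2 : β2 / (x * β) = β2 * α / (x * α * β) := by
    rw [← ENNReal.mul_div_mul_right _ _ hα0 hαt]
    congr 1
    ring
  have e3 : x * α * β = 2 * ENNReal.ofReal (b * a * hh) := by
    rw [hx, hα, hβ, ← ENNReal.ofReal_mul (by linarith), ← ENNReal.ofReal_mul (by positivity)]
    have : (2 : ENNReal) = ENNReal.ofReal 2 := by simp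
    rw [this, ← ENNReal.ofReal_mul (by norm_num)]
    congr 1
    ring
  set c := ENNReal.ofReal (b * a * hh) with hc
  have hc0 : c ≠ 0 := by rw [hc]; simp; positivity
  have hct : c ≠ ⊤ := ENNReal.ofReal_ne_top
  calc (1 : ENNReal) / 2 = c / (2 * c) := by
        rw [mul_comm, ← ENNReal.mul_div_mul_right 1 2 hc0 hct, one_mul, mul_comm]
    _ ≤ (β1 * β + β2 * α) / (2 * c) := ENNReal.div_le_div_right hlow _
    _ = β1 * β / (x * α * β) + β2 * α / (x * α * β) := by rw [e3, ENNReal.add_div]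
    _ = β1 / (x * α) + β2 / (x * β) := by rw [e1, e2]
    _ ≤ β1 / V1 + β2 / V2 := add_le_add h1 h2

theorem core {K : Set (ℝ × ℝ × ℝ)} (hK : Convex ℝ K) (hcomp : IsCompact K) {B1 B2 : Set (ℝ × ℝ)}
    (hB1 : MeasurableSet B1) (hB2 : MeasurableSet B2)
    (hcov : ∀ p ∈ K, q1 p ∈ B1 ∨ q2 p ∈ B2)
    (hP1 : 0 < volume (q1 '' K)) (hP2 : 0 < volume (q2 '' K)) :
    1 / 2 ≤ volume B1 / volume (q1 '' K) + volume B2 / volume (q2 '' K) := by
  have hne : K.Nonempty := by
    by_contra hne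
    rw [not_nonempty_iff_eq_empty] at hne
    rw [hne] at hP1
    simp at hP1
  obtain ⟨p0, hp0, hmin⟩ := hcomp.exists_isMinOn hne continuous_fst.continuousOn
  obtain ⟨p1, hp1, hmax⟩ := hcomp.exists_isMaxOn hne continuous_fst.continuousOn
  have hmin' : ∀ p ∈ K, p0.1 ≤ p.1 := fun p hp => hmin hp
  have hmax' : ∀ p ∈ K, p.1 ≤ p1.1 := fun p hp => hmax hp
  set tm := (p0.1 + p1.1) / 2 with htm
  set hh := (p1.1 - p0.1) / 2 with hhh
  -- the middle section
  set Km : Set (ℝ × ℝ × ℝ) := K ∩ {p | p.1 = tm} with hKm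
  have hKmc : IsCompact Km := hcomp.inter_right (isClosed_eq continuous_fst continuous_const)
  have hmid : ∀ p ∈ K, ∀ p' ∈ K, (1 / 2 : ℝ) • p + (1 / 2 : ℝ) • p' ∈ K := fun p hp p' hp' =>
    hK hp hp' (by norm_num) (by norm_num) (by norm_num)
  have hKmne : Km.Nonempty := by
    refine ⟨(1 / 2 : ℝ) • p0 + (1 / 2 : ℝ) • p1, hmid p0 hp0 p1 hp1, ?_⟩
    simp only [mem_setOf_eq, Prod.fst_add, Prod.smul_fst, smul_eq_mul, htm]
    ring
  obtain ⟨L, hL, hLmin⟩ := hKmc.exists_isMinOn hKmne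
    (continuous_fst.comp continuous_snd).continuousOn
  obtain ⟨R, hR, hRmax⟩ := hKmc.exists_isMaxOn hKmne
    (continuous_fst.comp continuous_snd).continuousOn
  obtain ⟨B, hB, hBmin⟩ := hKmc.exists_isMinOn hKmne
    (continuous_snd.comp continuous_snd).continuousOn
  obtain ⟨T, hT, hTmax⟩ := hKmc.exists_isMaxOn hKmne
    (continuous_snd.comp continuous_snd).continuousOn
  have hLmin' : ∀ p ∈ Km, L.2.1 ≤ p.2.1 := fun p hp => hLmin hp
  have hRmax' : ∀ p ∈ Km, p.2.1 ≤ R.2.1 := fun p hp => hRmax hp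
  have hBmin' : ∀ p ∈ Km, B.2.2 ≤ p.2.2 := fun p hp => hBmin hp
  have hTmax' : ∀ p ∈ Km, p.2.2 ≤ T.2.2 := fun p hp => hTmax hp
  -- levels
  have hlevel : ∀ t, p0.1 ≤ t → t ≤ p1.1 → ∃ p ∈ K, p.1 = t := by
    intro t h0 h1
    have hc : Convex ℝ (Prod.fst '' K) := hK.linear_image (LinearMap.fst ℝ ℝ (ℝ × ℝ))
    have := hc.ordConnected.out (mem_image_of_mem _ hp0) (mem_image_of_mem _ hp1) ⟨h0, h1⟩
    obtain ⟨p, hp, hpt⟩ := this
    exact ⟨p, hp, hpt⟩
  -- upper bounds for the areas of the shadows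
  have hV1 : volume (q1 '' K) ≤ ENNReal.ofReal (2 * hh) * ENNReal.ofReal (T.2.2 - B.2.2) := by
    refine hh_bound (q1 '' K) (hcomp.image continuous_q1).measurableSet tm hh B.2.2 T.2.2 ?_ ?_ ?_
    · rintro _ ⟨p, hp, rfl⟩
      have a1 := hmin' p hp
      have a2 := hmax' p hp
      simp only [q1]
      rw [abs_le]
      constructor <;> simp only [htm, hhh] <;> linarith
    · rintro s y y' ⟨p, hp, hpe⟩ ⟨p', hp', hpe'⟩
      have hm := hmid p hp p' hp'
      simp only [q1, Prod.mk.injEq] at hpe hpe'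
      have hmm : (1 / 2 : ℝ) • p + (1 / 2 : ℝ) • p' ∈ Km := by
        refine ⟨hm, ?_⟩
        simp only [mem_setOf_eq, Prod.fst_add, Prod.smul_fst, smul_eq_mul, hpe.1, hpe'.1]
        ring
      have b1 := hBmin' _ hmm
      have b2 := hTmax' _ hmm
      simp only [Prod.snd_add, Prod.smul_snd, smul_eq_mul, hpe.2, hpe'.2] at b1 b2
      constructor <;> linarith
    · rintro s y ⟨p, hp, hpe⟩
      simp only [q1, Prod.mk.injEq] at hpe
      have a1 := hmin' p hp
      have a2 := hmax' p hp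
      obtain ⟨p', hp', hpt⟩ := hlevel (tm - s) (by rw [hpe.1] at a2; simp only [htm] at a2 ⊢; linarith)
        (by rw [hpe.1] at a1; simp only [htm] at a1 ⊢; linarith)
      exact ⟨p'.2.2, p', hp', by simp only [q1, hpt]⟩
  have hV2 : volume (q2 '' K) ≤ ENNReal.ofReal (2 * hh) * ENNReal.ofReal (R.2.1 - L.2.1) := by
    refine hh_bound (q2 '' K) (hcomp.image continuous_q2).measurableSet tm hh L.2.1 R.2.1 ?_ ?_ ?_
    · rintro _ ⟨p, hp, rfl⟩
      have a1 := hmin' p hp
      have a2 := hmax' p hp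
      simp only [q2]
      rw [abs_le]
      constructor <;> simp only [htm, hhh] <;> linarith
    · rintro s y y' ⟨p, hp, hpe⟩ ⟨p', hp', hpe'⟩
      have hm := hmid p hp p' hp'
      simp only [q2, Prod.mk.injEq] at hpe hpe'
      have hmm : (1 / 2 : ℝ) • p + (1 / 2 : ℝ) • p' ∈ Km := by
        refine ⟨hm, ?_⟩
        simp only [mem_setOf_eq, Prod.fst_add, Prod.smul_fst, smul_eq_mul, hpe.1, hpe'.1]
        ring
      have b1 := hLmin' _ hmm
      have b2 := hRmax' _ hmm
      simp only [Prod.snd_add, Prod.smul_snd, Prod.fst_add, Prod.smul_fst, smul_eq_mul, hpe.2,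
        hpe'.2] at b1 b2
      constructor <;> linarith
    · rintro s y ⟨p, hp, hpe⟩
      simp only [q2, Prod.mk.injEq] at hpe
      have a1 := hmin' p hp
      have a2 := hmax' p hp
      obtain ⟨p', hp', hpt⟩ := hlevel (tm - s) (by rw [hpe.1] at a2; simp only [htm] at a2 ⊢; linarith)
        (by rw [hpe.1] at a1; simp only [htm] at a1 ⊢; linarith)
      exact ⟨p'.2.1, p', hp', by simp only [q2, hpt]⟩
  -- positivity
  have hpos1 : 0 < ENNReal.ofReal (2 * hh) * ENNReal.ofReal (T.2.2 - B.2.2) := lt_of_lt_of_le hP1 hV1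
  have hpos2 : 0 < ENNReal.ofReal (2 * hh) * ENNReal.ofReal (R.2.1 - L.2.1) := lt_of_lt_of_le hP2 hV2
  have hhpos : 0 < hh := by
    have : ENNReal.ofReal (2 * hh) ≠ 0 := fun h => by rw [h, zero_mul] at hpos1; exact lt_irrefl _ hpos1
    have := ENNReal.ofReal_pos.mp (pos_iff_ne_zero.mpr this)
    linarith
  have hapos : 0 < T.2.2 - B.2.2 := by
    have : ENNReal.ofReal (T.2.2 - B.2.2) ≠ 0 := fun h => by
      rw [h, mul_zero] at hpos1; exact lt_irrefl _ hpos1
    exact ENNReal.ofReal_pos.mp (pos_iff_ne_zero.mpr this)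
  have hbpos : 0 < R.2.1 - L.2.1 := by
    have : ENNReal.ofReal (R.2.1 - L.2.1) ≠ 0 := fun h => by
      rw [h, mul_zero] at hpos2; exact lt_irrefl _ hpos2
    exact ENNReal.ofReal_pos.mp (pos_iff_ne_zero.mpr this)
  set a := T.2.2 - B.2.2 with ha
  set b := R.2.1 - L.2.1 with hb
  -- the lower bound
  set φ : ℝ → ENNReal := fun t => volume (Prod.mk t ⁻¹' B1) * ENNReal.ofReal b +
    volume (Prod.mk t ⁻¹' B2) * ENNReal.ofReal a with hφ
  have hpt : ∀ s : ℝ, ENNReal.ofReal (b * a * (1 - |s| / hh)) ≤ φ (tm + s) := by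
    intro s
    by_cases hs : hh ≤ |s|
    · have : b * a * (1 - |s| / hh) ≤ 0 := by
        have h1 : 1 ≤ |s| / hh := (one_le_div hhpos).mpr hs
        have h2 : 0 < b * a := mul_pos hbpos hapos
        nlinarith
      rw [ENNReal.ofReal_of_nonpos this]
      exact bot_le
    · have hs' : |s| < hh := not_le.mp hs
      have hσ0 : 0 ≤ |s| / hh := div_nonneg (abs_nonneg s) hhpos.le
      have hσ1 : |s| / hh < 1 := (div_lt_one hhpos).mpr hs'
      rcases le_total 0 s with h0 | h0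
      · have := slice_bound hK hB1 hB2 hcov hL.1 hR.1 hB.1 hT.1 hp1 tm hL.2 hR.2 hB.2 hT.2
          (hLmin' B hB) (hRmax' B hB) (hLmin' T hT) (hRmax' T hT) (hBmin' L hL) (hTmax' L hL)
          (hBmin' R hR) (hTmax' R hR) (by linarith) (by linarith) (|s| / hh) hσ0 hσ1
        have e : tm + |s| / hh * (p1.1 - tm) = tm + s := by
          have : p1.1 - tm = hh := by simp only [htm, hhh]; ring
          rw [this, abs_of_nonneg h0]
          field_simp
        rw [e] at this
        have e2 : b * a * (1 - |s| / hh) = (1 - |s| / hh) * (b * a) := by ring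
        rw [e2]
        exact this
      · have := slice_bound hK hB1 hB2 hcov hL.1 hR.1 hB.1 hT.1 hp0 tm hL.2 hR.2 hB.2 hT.2
          (hLmin' B hB) (hRmax' B hB) (hLmin' T hT) (hRmax' T hT) (hBmin' L hL) (hTmax' L hL)
          (hBmin' R hR) (hTmax' R hR) (by linarith) (by linarith) (|s| / hh) hσ0 hσ1
        have e : tm + |s| / hh * (p0.1 - tm) = tm + s := by
          have : p0.1 - tm = -hh := by simp only [htm, hhh]; ring
          rw [this, abs_of_nonpos h0]
          field_simp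
        rw [e] at this
        have e2 : b * a * (1 - |s| / hh) = (1 - |s| / hh) * (b * a) := by ring
        rw [e2]
        exact this
  have hm1 : Measurable (fun t => volume (Prod.mk t ⁻¹' B1)) := measurable_measure_prodMk_left hB1
  have hm2 : Measurable (fun t => volume (Prod.mk t ⁻¹' B2)) := measurable_measure_prodMk_left hB2
  have hφint : ∫⁻ t, φ t = volume B1 * ENNReal.ofReal b + volume B2 * ENNReal.ofReal a := by
    simp only [hφ]
    rw [lintegral_add_left (hm1.mul_const _), lintegral_mul_const _ hm1, lintegral_mul_const _ hm2,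
      Measure.volume_eq_prod, Measure.prod_apply hB1, Measure.prod_apply hB2]
  have hlow : ENNReal.ofReal (b * a * hh) ≤ volume B1 * ENNReal.ofReal b + volume B2 * ENNReal.ofReal a := by
    rw [← hφint, ← lintegral_add_left_eq_self φ tm]
    exact le_trans (tent_integral (b * a) hh (mul_pos hbpos hapos).le hhpos) (lintegral_mono hpt)
  exact ennreal_final _ _ _ _ hh a b hhpos hapos hbpos hV1 hV2 hlow

end Vale.Agent.Lib.P243
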