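import Mathlib
import Vale.Agent.Lib.P243.Core2

/-!
Transfer of the two-cylinder theorem from coordinates to Euclidean 3-space.
-/

namespace Vale.Agent.Lib.P243

open MeasureTheory Set

/-- Euclidean 3-space. -/
abbrev E3 := EuclideanSpace ℝ (Fin 3)

theorem exists_scale {S : Type*} [NormedAddCommGroup S] [InnerProductSpace ℝ S]
    [FiniteDimensional ℝ S] [MeasurableSpace S] [BorelSpace S] (ψ : S ≃L[ℝ] ℝ × ℝ) :
    ∃ c : ENNReal, c ≠ 0 ∧ c ≠ ⊤ ∧ ∀ X : Set S, volume (ψ '' X) = c * volume X := by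
  set μ' : Measure S := Measure.map ψ.symm volume with hμ'
  have : μ'.IsAddHaarMeasure := ContinuousLinearEquiv.isAddHaarMeasure_map ψ.symm volume
  have h := Measure.isAddLeftInvariant_eq_smul μ' (volume : Measure S)
  refine ⟨(Measure.addHaarScalarFactor μ' (volume : Measure S) : ENNReal), ?_, ENNReal.coe_ne_top, ?_⟩
  · have := Measure.addHaarScalarFactor_pos_of_isAddHaarMeasure μ' (volume : Measure S)
    exact_mod_cast this.ne'
  · intro X
    have e1 : μ' X = volume (ψ '' X) := by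
      rw [hμ']
      have : Measure.map ψ.symm volume X = volume (ψ.symm ⁻¹' X) :=
        ψ.symm.toHomeomorph.toMeasurableEquiv.map_apply X
      rw [this]
      congr 1
      exact (ψ.image_eq_preimage_symm X).symm
    have h2 : μ' X = (Measure.addHaarScalarFactor μ' volume • (volume : Measure S)) X := by
      rw [← h]
    rw [← e1, h2]
    rfl

theorem transfer_one (u : E3) (f : E3 →ₗ[ℝ] ℝ × ℝ) (hfu : f u = 0)
    (hker : ∀ p, f p = 0 → p ∈ (ℝ ∙ u)) (hsurj : Function.Surjective f) :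
    ∃ ψ : ↥(ℝ ∙ u)ᗮ ≃L[ℝ] ℝ × ℝ, ∀ p : E3, ψ ((ℝ ∙ u)ᗮ.orthogonalProjectionOnto p) = f p := by
  set S : Submodule ℝ E3 := (ℝ ∙ u)ᗮ with hS
  have hfac : ∀ p : E3, f (S.orthogonalProjectionOnto p : E3) = f p := by
    intro p
    have h1 : p - S.starProjection p ∈ Sᗮ := Submodule.sub_starProjection_mem_orthogonal p
    have hSS : Sᗮ = (ℝ ∙ u) := Submodule.orthogonal_orthogonal _
    rw [hSS] at h1
    obtain ⟨c, hc⟩ := Submodule.mem_span_singleton.mp h1
    have h2 : f (p - S.starProjection p) = 0 := by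
      rw [← hc, map_smul, hfu, smul_zero]
    rw [map_sub, sub_eq_zero] at h2
    rw [Submodule.coe_orthogonalProjectionOnto_apply]
    exact h2.symm
  set g : ↥S →ₗ[ℝ] ℝ × ℝ := f ∘ₗ S.subtype with hg
  have hinj : Function.Injective g := by
    rw [injective_iff_map_eq_zero]
    intro x hx
    have h1 : (x : E3) ∈ (ℝ ∙ u) := hker _ hx
    have h2 : (x : E3) ∈ (ℝ ∙ u)ᗮ := x.2
    have := (Submodule.disjoint_def.mp (Submodule.orthogonal_disjoint (ℝ ∙ u))) _ h1 h2
    exact Subtype.ext this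
  have hsur : Function.Surjective g := by
    intro z
    obtain ⟨p, hp⟩ := hsurj z
    exact ⟨S.orthogonalProjectionOnto p, by rw [← hp]; exact hfac p⟩
  refine ⟨(LinearEquiv.ofBijective g ⟨hinj, hsur⟩).toContinuousLinearEquiv, ?_⟩
  intro p
  exact hfac p

theorem shadow_pos {K : Set E3} (hi : (interior K).Nonempty) (u : E3) :
    0 < volume ((ℝ ∙ u)ᗮ.orthogonalProjectionOnto '' K) := by
  set π := (ℝ ∙ u)ᗮ.orthogonalProjectionOnto with hπ
  have hsurj : Function.Surjective π := by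
    intro x
    exact ⟨x, by rw [hπ]; exact Submodule.orthogonalProjectionOnto_mem_subspace_eq_self x⟩
  have hopen : IsOpen (π '' interior K) := (π.isOpenMap hsurj) _ isOpen_interior
  have hne : (π '' interior K).Nonempty := hi.image _
  exact lt_of_lt_of_le (hopen.measure_pos volume hne) (measure_mono (image_mono interior_subset))

theorem two_cyl_indep {K : Set E3} (hK : Convex ℝ K) (hc : IsCompact K)
    (hi : (interior K).Nonempty) (u₁ u₂ : E3) (hli : LinearIndependent ℝ ![u₁, u₂])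
    (B₁ : Set ↥(ℝ ∙ u₁)ᗮ) (B₂ : Set ↥(ℝ ∙ u₂)ᗮ) (hB₁ : MeasurableSet B₁) (hB₂ : MeasurableSet B₂)
    (hcov : ∀ x ∈ K, (ℝ ∙ u₁)ᗮ.orthogonalProjectionOnto x ∈ B₁ ∨
      (ℝ ∙ u₂)ᗮ.orthogonalProjectionOnto x ∈ B₂) :
    1 / 2 ≤ volume B₁ / volume ((ℝ ∙ u₁)ᗮ.orthogonalProjectionOnto '' K) +
      volume B₂ / volume ((ℝ ∙ u₂)ᗮ.orthogonalProjectionOnto '' K) := by
  obtain ⟨w, hw⟩ := exists_linearIndependent_cons_of_lt_finrank hli (by simp)
  set b := basisOfLinearIndependentOfCardEqFinrank hw (by simp) with hb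
  have hb0 : b 0 = w := by rw [hb, coe_basisOfLinearIndependentOfCardEqFinrank]; rfl
  have hb1 : b 1 = u₁ := by rw [hb, coe_basisOfLinearIndependentOfCardEqFinrank]; rfl
  have hb2 : b 2 = u₂ := by rw [hb, coe_basisOfLinearIndependentOfCardEqFinrank]; rfl
  have hcoord : ∀ i j : Fin 3, b.coord i (b j) = if j = i then 1 else 0 := by
    intro i j
    rw [Module.Basis.coord_apply, Module.Basis.repr_self, Finsupp.single_apply]
  have hexp : ∀ p : E3, p = b.coord 0 p • b 0 + b.coord 1 p • b 1 + b.coord 2 p • b 2 := by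
    intro p
    have := b.sum_repr p
    rw [Fin.sum_univ_three] at this
    exact this.symm
  set f₁ : E3 →ₗ[ℝ] ℝ × ℝ := (b.coord 0).prod (b.coord 2) with hf₁
  set f₂ : E3 →ₗ[ℝ] ℝ × ℝ := (b.coord 0).prod (b.coord 1) with hf₂
  set Ψ : E3 →ₗ[ℝ] ℝ × ℝ × ℝ := (b.coord 0).prod ((b.coord 1).prod (b.coord 2)) with hΨ
  obtain ⟨ψ₁, hψ₁⟩ := transfer_one u₁ f₁
    (by rw [← hb1, hf₁]; simp [hcoord])
    (by
      intro p hp
      rw [hf₁] at hp
      have hp1 : b.coord 0 p = 0 := congrArg Prod.fst hp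
      have hp2 : b.coord 2 p = 0 := congrArg Prod.snd hp
      rw [hexp p, hp1, hp2, hb1]
      simp only [zero_smul, zero_add, add_zero]
      exact Submodule.smul_mem _ _ (Submodule.mem_span_singleton_self u₁))
    (by
      rintro ⟨z1, z2⟩
      refine ⟨z1 • b 0 + z2 • b 2, ?_⟩
      rw [hf₁]
      simp)
  obtain ⟨ψ₂, hψ₂⟩ := transfer_one u₂ f₂
    (by rw [← hb2, hf₂]; simp [hcoord])
    (by
      intro p hp
      rw [hf₂] at hp
      have hp1 : b.coord 0 p = 0 := congrArg Prod.fst hp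
      have hp2 : b.coord 1 p = 0 := congrArg Prod.snd hp
      rw [hexp p, hp1, hp2, hb2]
      simp only [zero_smul, zero_add]
      exact Submodule.smul_mem _ _ (Submodule.mem_span_singleton_self u₂))
    (by
      rintro ⟨z1, z2⟩
      refine ⟨z1 • b 0 + z2 • b 1, ?_⟩
      rw [hf₂]
      simp)
  obtain ⟨c₁, hc₁0, hc₁t, hc₁⟩ := exists_scale ψ₁
  obtain ⟨c₂, hc₂0, hc₂t, hc₂⟩ := exists_scale ψ₂
  have hq1 : ∀ p, q1 (Ψ p) = f₁ p := fun p => rfl
  have hq2 : ∀ p, q2 (Ψ p) = f₂ p := fun p => rfl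
  have him1 : q1 '' (Ψ '' K) = ψ₁ '' ((ℝ ∙ u₁)ᗮ.orthogonalProjectionOnto '' K) := by
    rw [image_image, image_image]
    exact image_congr (fun p _ => by rw [hq1, hψ₁])
  have him2 : q2 '' (Ψ '' K) = ψ₂ '' ((ℝ ∙ u₂)ᗮ.orthogonalProjectionOnto '' K) := by
    rw [image_image, image_image]
    exact image_congr (fun p _ => by rw [hq2, hψ₂])
  have hmain := core (K := Ψ '' K) (hK.linear_image Ψ)
    (hc.image (LinearMap.continuous_of_finiteDimensional Ψ))
    (B1 := ψ₁ '' B₁) (B2 := ψ₂ '' B₂)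
    (ψ₁.toHomeomorph.toMeasurableEquiv.measurableSet_image.mpr hB₁)
    (ψ₂.toHomeomorph.toMeasurableEquiv.measurableSet_image.mpr hB₂)
    (by
      rintro _ ⟨p, hp, rfl⟩
      rcases hcov p hp with h | h
      · left; rw [hq1, ← hψ₁]; exact mem_image_of_mem _ h
      · right; rw [hq2, ← hψ₂]; exact mem_image_of_mem _ h)
    (by
      rw [him1, hc₁]
      exact ENNReal.mul_pos hc₁0 (shadow_pos hi u₁).ne')
    (by
      rw [him2, hc₂]
      exact ENNReal.mul_pos hc₂0 (shadow_pos hi u₂).ne')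
  rw [him1, him2, hc₁, hc₁, hc₂, hc₂, ENNReal.mul_div_mul_left _ _ hc₁0 hc₁t,
    ENNReal.mul_div_mul_left _ _ hc₂0 hc₂t] at hmain
  exact hmain

end Vale.Agent.Lib.P243
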