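import Mathlib
import Vale.Agent.Lib.P243.Transfer

/-!
The two-cylinder theorem in Euclidean 3-space, for arbitrary unit axis directions and arbitrary bases.
-/

namespace Vale.Agent.Lib.P243

open MeasureTheory Set

theorem span_eq_of_dep (u₁ u₂ : E3) (h1 : u₁ ≠ 0) (h2 : u₂ ≠ 0)
    (hdep : ¬ LinearIndependent ℝ ![u₁, u₂]) : (ℝ ∙ u₁) = (ℝ ∙ u₂) := by
  rw [LinearIndependent.pair_iff' h1] at hdep
  simp only [ne_eq, not_forall, not_not] at hdep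
  obtain ⟨a, ha⟩ := hdep
  have ha0 : a ≠ 0 := by
    rintro rfl
    rw [zero_smul] at ha
    exact h2 ha.symm
  rw [← ha]
  exact (Submodule.span_singleton_smul_eq (IsUnit.mk0 a ha0) u₁).symm

theorem two_cyl_same {K : Set E3} (S₁ S₂ : Submodule ℝ E3) [S₁.HasOrthogonalProjection]
    [S₂.HasOrthogonalProjection] (h : S₁ = S₂) (B₁ : Set S₁) (B₂ : Set S₂)
    (hcov : ∀ x ∈ K, S₁.orthogonalProjectionOnto x ∈ B₁ ∨ S₂.orthogonalProjectionOnto x ∈ B₂)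
    (hpos : 0 < volume (S₁.orthogonalProjectionOnto '' K))
    (hfin : volume (S₁.orthogonalProjectionOnto '' K) ≠ ⊤) :
    1 / 2 ≤ volume B₁ / volume (S₁.orthogonalProjectionOnto '' K) +
      volume B₂ / volume (S₂.orthogonalProjectionOnto '' K) := by
  subst h
  set V := volume (S₁.orthogonalProjectionOnto '' K) with hV
  have hsub : S₁.orthogonalProjectionOnto '' K ⊆ B₁ ∪ B₂ := by
    rintro _ ⟨x, hx, rfl⟩
    exact hcov x hx
  have hle : V ≤ volume B₁ + volume B₂ := le_trans (measure_mono hsub) (measure_union_le _ _)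
  rw [← ENNReal.add_div]
  calc (1 : ENNReal) / 2 ≤ 1 := by
        rw [ENNReal.div_le_iff (by norm_num) (by norm_num)]
        norm_num
    _ = V / V := (ENNReal.div_self hpos.ne' hfin).symm
    _ ≤ (volume B₁ + volume B₂) / V := ENNReal.div_le_div_right hle _

theorem shadow_ne_top {K : Set E3} (hc : IsCompact K) (u : E3) :
    volume ((ℝ ∙ u)ᗮ.orthogonalProjectionOnto '' K) ≠ ⊤ :=
  (hc.image (ℝ ∙ u)ᗮ.orthogonalProjectionOnto.continuous).measure_lt_top.ne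

/-- Two cylinders, measurable bases, covering expressed with projections. -/
theorem two_cyl_meas {K : Set E3} (hK : Convex ℝ K) (hc : IsCompact K)
    (hi : (interior K).Nonempty) (u₁ u₂ : E3) (hu₁ : u₁ ≠ 0) (hu₂ : u₂ ≠ 0)
    (B₁ : Set ↥(ℝ ∙ u₁)ᗮ) (B₂ : Set ↥(ℝ ∙ u₂)ᗮ) (hB₁ : MeasurableSet B₁) (hB₂ : MeasurableSet B₂)
    (hcov : ∀ x ∈ K, (ℝ ∙ u₁)ᗮ.orthogonalProjectionOnto x ∈ B₁ ∨
      (ℝ ∙ u₂)ᗮ.orthogonalProjectionOnto x ∈ B₂) :
    1 / 2 ≤ volume B₁ / volume ((ℝ ∙ u₁)ᗮ.orthogonalProjectionOnto '' K) +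
      volume B₂ / volume ((ℝ ∙ u₂)ᗮ.orthogonalProjectionOnto '' K) := by
  by_cases hli : LinearIndependent ℝ ![u₁, u₂]
  · exact two_cyl_indep hK hc hi u₁ u₂ hli B₁ B₂ hB₁ hB₂ hcov
  · have hspan := span_eq_of_dep u₁ u₂ hu₁ hu₂ hli
    exact two_cyl_same (ℝ ∙ u₁)ᗮ (ℝ ∙ u₂)ᗮ (by rw [hspan]) B₁ B₂ hcov (shadow_pos hi u₁)
      (shadow_ne_top hc u₁)

theorem proj_add_smul (u : E3) (b : ↥(ℝ ∙ u)ᗮ) (s : ℝ) :
    (ℝ ∙ u)ᗮ.orthogonalProjectionOnto ((b : E3) + s • u) = b := by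
  rw [map_add, Submodule.orthogonalProjectionOnto_mem_subspace_eq_self]
  have h : s • u ∈ (ℝ ∙ u)ᗮᗮ := by
    rw [Submodule.orthogonal_orthogonal]
    exact Submodule.smul_mem _ _ (Submodule.mem_span_singleton_self u)
  rw [Submodule.orthogonalProjectionOnto_apply_of_mem_orthogonal h, add_zero]

/-- Two cylinders `Bᵢ + ℝ uᵢ`, arbitrary bases (outer measure). -/
theorem two_cyl {K : Set E3} (hK : Convex ℝ K) (hc : IsCompact K)
    (hi : (interior K).Nonempty) (u₁ u₂ : E3) (hu₁ : u₁ ≠ 0) (hu₂ : u₂ ≠ 0)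
    (B₁ : Set ↥(ℝ ∙ u₁)ᗮ) (B₂ : Set ↥(ℝ ∙ u₂)ᗮ)
    (hcov : ∀ x ∈ K, (∃ b ∈ B₁, ∃ s : ℝ, x = (b : E3) + s • u₁) ∨
      (∃ b ∈ B₂, ∃ s : ℝ, x = (b : E3) + s • u₂)) :
    1 / 2 ≤ volume B₁ / volume ((ℝ ∙ u₁)ᗮ.orthogonalProjectionOnto '' K) +
      volume B₂ / volume ((ℝ ∙ u₂)ᗮ.orthogonalProjectionOnto '' K) := by
  have := two_cyl_meas hK hc hi u₁ u₂ hu₁ hu₂ (toMeasurable volume B₁) (toMeasurable volume B₂)
    (measurableSet_toMeasurable _ _) (measurableSet_toMeasurable _ _) (by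
      intro x hx
      rcases hcov x hx with ⟨b, hb, s, rfl⟩ | ⟨b, hb, s, rfl⟩
      · left; rw [proj_add_smul]; exact subset_toMeasurable _ _ hb
      · right; rw [proj_add_smul]; exact subset_toMeasurable _ _ hb)
  rw [measure_toMeasurable, measure_toMeasurable] at this
  exact this

end Vale.Agent.Lib.P243
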