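import Mathlib
import Vale.Agent.Lib.P243.Defs
import Vale.Agent.Lib.P243.Final

/-!
Bridge between the definitions of `Defs.lean` and the Mathlib formulation used in the proofs.
-/

namespace Vale.Agent.Lib.P243

open MeasureTheory Set

theorem shadow_eq (K : Set Space) (u : Space) :
    shadow K u = (ℝ ∙ u)ᗮ.orthogonalProjectionOnto '' K := by
  ext b
  constructor
  · rintro ⟨s, hs⟩
    exact ⟨_, hs, proj_add_smul u b s⟩
  · rintro ⟨x, hx, rfl⟩
    have h1 : x - (ℝ ∙ u)ᗮ.starProjection x ∈ (ℝ ∙ u)ᗮᗮ :=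
      Submodule.sub_starProjection_mem_orthogonal x
    rw [Submodule.orthogonal_orthogonal] at h1
    obtain ⟨c, hc⟩ := Submodule.mem_span_singleton.mp h1
    refine ⟨c, ?_⟩
    have : ((ℝ ∙ u)ᗮ.orthogonalProjectionOnto x : Space) + c • u = x := by
      rw [hc, Submodule.coe_orthogonalProjectionOnto_apply]
      abel
    show ((ℝ ∙ u)ᗮ.orthogonalProjectionOnto x : Space) + c • u ∈ K
    rw [this]
    exact hx

theorem area_shadow_pos {K : Set Space} (hi : (interior K).Nonempty) (u : Space) :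
    0 < area u (shadow K u) := by
  rw [shadow_eq]
  exact shadow_pos hi u

theorem area_shadow_ne_top {K : Set Space} (hc : IsCompact K) (u : Space) :
    area u (shadow K u) ≠ ⊤ := by
  rw [shadow_eq]
  exact shadow_ne_top hc u

theorem two_cyl' {K : Set Space} (hK : Convex ℝ K) (hc : IsCompact K)
    (hi : (interior K).Nonempty) (u₁ u₂ : Space) (hu₁ : u₁ ≠ 0) (hu₂ : u₂ ≠ 0)
    (B₁ : Set (Plane u₁)) (B₂ : Set (Plane u₂))
    (hcov : K ⊆ cylinder u₁ B₁ ∪ cylinder u₂ B₂) :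
    1 / 2 ≤ area u₁ B₁ / area u₁ (shadow K u₁) + area u₂ B₂ / area u₂ (shadow K u₂) := by
  rw [shadow_eq, shadow_eq]
  exact two_cyl hK hc hi u₁ u₂ hu₁ hu₂ B₁ B₂ (fun x hx => hcov hx)

end Vale.Agent.Lib.P243
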